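import Mathlib
import Vale.Agent.Lib.P243.RefMerge
import Vale.Agent.Lib.P243.Coplanar
import Vale.Agent.Lib.P243.SymCenter

open MeasureTheory Set Module

namespace Vale.Agent.Results.P243.AllBodies

variable {E : Type} [NormedAddCommGroup E] [InnerProductSpace ℝ E] [FiniteDimensional ℝ E]
  [MeasurableSpace E] [BorelSpace E]

/-- The plane through the origin orthogonal to `u`. -/
noncomputable def plane (u : E) : Submodule ℝ E := (ℝ ∙ u)ᗮ

/-- Euclidean area (Lebesgue measure of the subspace `V`) of a subset of `V`. -/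
noncomputable def area (V : Submodule ℝ E) (B : Set V) : ENNReal := volume B

/-- The orthogonal projection of the set `K` onto the subspace `V`. -/
noncomputable def proj (V : Submodule ℝ E) (K : Set E) : Set V :=
  V.orthogonalProjectionOnto '' K

/-- The area of the orthogonal projection of `K` onto the plane orthogonal to `u`. -/
noncomputable def shadowArea (K : Set E) (u : E) : ENNReal := area (plane u) (proj (plane u) K)

/-- The smallest area of an orthogonal projection of `K` onto a plane. -/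
noncomputable def minShadow (K : Set E) : ENNReal := ⨅ v : {v : E // ‖v‖ = 1}, shadowArea K v.1

/-- The cylinder `B + ℝ u` with base `B` in the plane orthogonal to `u`. -/
def cylinder (u : E) (B : Set (plane u)) : Set E :=
  {x | ∃ b ∈ B, ∃ t : ℝ, x = (b : E) + t • u}

/-- For every finite cylinder covering of every convex body in Euclidean 3-space, with
`β i = |B i| / |shadow of K along u i|`:
(1) `1 + 2 ∑ min(1, β i) ^ (3/2) ≤ 3 ∑ β i`;
(2) if the axes are parallel to `m` lines (`d` groups the cylinders into `m` classes with parallel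
axes), then `∑ β i ≥ 1/3 + 2 / (9 √(3 m))`, `∑ β i ≥ 1/2` if `m ≤ 2`, `∑ β i ≥ 4/9` if `m ≤ 3`,
and the same bounds hold for `∑ |B i| / A_min`;
(3) Bang's half-area inequality if the axes are parallel to one plane;
(4) the constant `5/12` if the body is centrally symmetric. -/
theorem result (hE : finrank ℝ E = 3)
    (K : Set E) (hK : Convex ℝ K) (hc : IsCompact K) (hint : (interior K).Nonempty)
    {ι : Type} [Fintype ι] (u : ι → E) (hu : ∀ i, ‖u i‖ = 1)
    (B : (i : ι) → Set (plane (u i)))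
    (hcov : K ⊆ ⋃ i, cylinder (u i) (B i)) :
    (1 + 2 * ∑ i, (min 1 (area (plane (u i)) (B i) / shadowArea K (u i))) ^ (3 / 2 : ℝ)
      ≤ 3 * ∑ i, area (plane (u i)) (B i) / shadowArea K (u i)) ∧
    (∀ (κ : Type) [Fintype κ] (d : ι → κ), Function.Surjective d →
      (∀ i j, d i = d j → ℝ ∙ u i = ℝ ∙ u j) →
      (ENNReal.ofReal (1 / 3 + 2 / (9 * √(3 * (Fintype.card κ : ℝ))))
          ≤ ∑ i, area (plane (u i)) (B i) / shadowArea K (u i) ∧
        ENNReal.ofReal (1 / 3 + 2 / (9 * √(3 * (Fintype.card κ : ℝ)))) * minShadow K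
          ≤ ∑ i, area (plane (u i)) (B i)) ∧
      (Fintype.card κ ≤ 2 → 1 / 2 ≤ ∑ i, area (plane (u i)) (B i) / shadowArea K (u i) ∧
        1 / 2 * minShadow K ≤ ∑ i, area (plane (u i)) (B i)) ∧
      (Fintype.card κ ≤ 3 → 4 / 9 ≤ ∑ i, area (plane (u i)) (B i) / shadowArea K (u i) ∧
        4 / 9 * minShadow K ≤ ∑ i, area (plane (u i)) (B i))) ∧
    (∀ n : E, ‖n‖ = 1 → (∀ i, inner ℝ (u i) n = 0) →
      minShadow K / 2 ≤ ∑ i, area (plane (u i)) (B i)) ∧
    (∀ c : E, (∀ x ∈ K, c + c - x ∈ K) →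
      5 / 12 ≤ ∑ i, area (plane (u i)) (B i) / shadowArea K (u i) ∧
      5 / 12 * minShadow K ≤ ∑ i, area (plane (u i)) (B i)) := by
  have hcov' : ∀ x ∈ K, ∃ i, ∃ b ∈ B i, ∃ t : ℝ, x = (b : E) + t • u i := by
    intro x hx
    obtain ⟨i, hi⟩ := mem_iUnion.1 (hcov hx)
    exact ⟨i, hi⟩
  refine ⟨Vale.Agent.Lib.P243.ref_bound hE hK hc hint u hu B hcov', ?_, fun n hn hperp => ?_,
    fun c hsym => ⟨Vale.Agent.Lib.P243.sym_bound_center hE hK hc hint c hsym u hu B hcov',
    Vale.Agent.Lib.P243.sym_bang_center hE hK hc hint c hsym u hu B hcov'⟩⟩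
  · intro κ _ d hd hline
    obtain ⟨c1, c2, c3⟩ :=
      Vale.Agent.Lib.P243.ref_directions hE hK hc hint u hu B hcov' d hd hline
    exact ⟨⟨c1, Vale.Agent.Lib.P243.abs_of_rel hc hint u hu B hcov' c1⟩,
      fun h => ⟨c2 h, Vale.Agent.Lib.P243.abs_of_rel hc hint u hu B hcov' (c2 h)⟩,
      fun h => ⟨c3 h, Vale.Agent.Lib.P243.abs_of_rel hc hint u hu B hcov' (c3 h)⟩⟩
  · have h1 : (⨅ v : {v : E // ‖v‖ = 1 ∧ inner ℝ v n = 0}, shadowArea K v.1) / 2
        ≤ ∑ i, area (plane (u i)) (B i) :=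
      Vale.Agent.Lib.P243.coplanar_bound hE hK hc hint u hu B hcov' n hn hperp _
        (fun v hv hvn => iInf_le
          (fun v : {v : E // ‖v‖ = 1 ∧ inner ℝ v n = 0} => shadowArea K v.1) ⟨v, hv, hvn⟩)
    refine le_trans ?_ h1
    apply ENNReal.div_le_div_right
    apply le_iInf
    intro v
    exact iInf_le (fun v : {v : E // ‖v‖ = 1} => shadowArea K v.1) ⟨v.1, v.2.1⟩

end Vale.Agent.Results.P243.AllBodies
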