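import Mathlib
import Vale.Agent.Lib.P243.Coplanar
import Vale.Agent.Lib.P243.SymCenter

open MeasureTheory Set Module

namespace Vale.Agent.Results.P243.HalfAreaSummary

variable {E : Type} [NormedAddCommGroup E] [InnerProductSpace ℝ E] [FiniteDimensional ℝ E]
  [MeasurableSpace E] [BorelSpace E]

/-- The plane through the origin orthogonal to `u`. -/
noncomputable def plane (u : E) : Submodule ℝ E := (ℝ ∙ u)ᗮ

/-- Euclidean area (Lebesgue measure of the subspace `V`) of a subset of `V`. -/
noncomputable def area (V : Submodule ℝ E) (B : Set V) : ENNReal := volume B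

/-- The orthogonal projection of the set `K` onto the subspace `V`. -/
noncomputable def proj (V : Submodule ℝ E) (K : Set E) : Set V :=
  V.orthogonalProjectionOnto '' K

/-- The area of the orthogonal projection of `K` onto the plane orthogonal to `u`. -/
noncomputable def shadowArea (K : Set E) (u : E) : ENNReal := area (plane u) (proj (plane u) K)

/-- The cylinder `B + ℝ u` with base `B` in the plane orthogonal to `u`. -/
def cylinder (u : E) (B : Set (plane u)) : Set E :=
  {x | ∃ b ∈ B, ∃ t : ℝ, x = (b : E) + t • u}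

/-- For every finite cylinder covering of a convex body in Euclidean 3-space:
(1) Bang's half-area inequality if the axes are parallel to one plane;
(2) the strong (directionwise relative) form with constant `1/2` if the axes are parallel to at
most two lines;
(3) the strong form and the absolute form with constant `5/12` if the body is centrally
symmetric (no condition on the axes). -/
theorem result (hE : finrank ℝ E = 3)
    (K : Set E) (hK : Convex ℝ K) (hc : IsCompact K) (hint : (interior K).Nonempty)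
    {ι : Type} [Fintype ι] (u : ι → E) (hu : ∀ i, ‖u i‖ = 1)
    (B : (i : ι) → Set (plane (u i)))
    (hcov : K ⊆ ⋃ i, cylinder (u i) (B i)) :
    (∀ n : E, ‖n‖ = 1 → (∀ i, inner ℝ (u i) n = 0) →
      (⨅ v : {v : E // ‖v‖ = 1}, shadowArea K v.1) / 2 ≤ ∑ i, area (plane (u i)) (B i)) ∧
    (∀ v w : E, ‖v‖ = 1 → ‖w‖ = 1 → (∀ i, ℝ ∙ u i = ℝ ∙ v ∨ ℝ ∙ u i = ℝ ∙ w) →
      1 / 2 ≤ ∑ i, area (plane (u i)) (B i) / shadowArea K (u i)) ∧
    (∀ c : E, (∀ x ∈ K, c + c - x ∈ K) →
      5 / 12 ≤ ∑ i, area (plane (u i)) (B i) / shadowArea K (u i) ∧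
      5 / 12 * (⨅ v : {v : E // ‖v‖ = 1}, shadowArea K v.1)
        ≤ ∑ i, area (plane (u i)) (B i)) := by
  have hcov' : ∀ x ∈ K, ∃ i, ∃ b ∈ B i, ∃ t : ℝ, x = (b : E) + t • u i := by
    intro x hx
    obtain ⟨i, hi⟩ := mem_iUnion.1 (hcov hx)
    exact ⟨i, hi⟩
  refine ⟨fun n hn hperp => ?_, fun v w hv hw hdir =>
    Vale.Agent.Lib.P243.family_bound hE hK hc hint u B hcov' v w hv hw hdir,
    fun c hsym => ⟨Vale.Agent.Lib.P243.sym_bound_center hE hK hc hint c hsym u hu B hcov',
    Vale.Agent.Lib.P243.sym_bang_center hE hK hc hint c hsym u hu B hcov'⟩⟩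
  have h1 : (⨅ v : {v : E // ‖v‖ = 1 ∧ inner ℝ v n = 0}, shadowArea K v.1) / 2
      ≤ ∑ i, area (plane (u i)) (B i) :=
    Vale.Agent.Lib.P243.coplanar_bound hE hK hc hint u hu B hcov' n hn hperp _
      (fun v hv hvn => iInf_le (fun v : {v : E // ‖v‖ = 1 ∧ inner ℝ v n = 0} => shadowArea K v.1)
        ⟨v, hv, hvn⟩)
  refine le_trans ?_ h1
  apply ENNReal.div_le_div_right
  apply le_iInf
  intro v
  exact iInf_le (fun v : {v : E // ‖v‖ = 1} => shadowArea K v.1) ⟨v.1, v.2.1⟩

end Vale.Agent.Results.P243.HalfAreaSummary
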