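import Mathlib
import Vale.Agent.Lib.P243.SymCenter

open MeasureTheory Set Module

namespace Vale.Agent.Results.P243.SymmetricBodies

variable {E : Type} [NormedAddCommGroup E] [InnerProductSpace ℝ E] [FiniteDimensional ℝ E]
  [MeasurableSpace E] [BorelSpace E]

/-- The plane through the origin orthogonal to `u`. -/
noncomputable def plane (u : E) : Submodule ℝ E := (ℝ ∙ u)ᗮ

/-- Euclidean area (Lebesgue measure of the subspace `V`) of a subset of `V`. -/
noncomputable def area (V : Submodule ℝ E) (B : Set V) : ENNReal := volume B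

/-- The orthogonal projection of the set `K` onto the subspace `V`. -/
noncomputable def proj (V : Submodule ℝ E) (K : Set E) : Set V :=
  V.orthogonalProjectionOnto '' K

/-- The area of the orthogonal projection of `K` onto the plane orthogonal to `u`. -/
noncomputable def shadowArea (K : Set E) (u : E) : ENNReal := area (plane u) (proj (plane u) K)

/-- The cylinder `B + ℝ u` with base `B` in the plane orthogonal to `u`. -/
def cylinder (u : E) (B : Set (plane u)) : Set E :=
  {x | ∃ b ∈ B, ∃ t : ℝ, x = (b : E) + t • u}

/-- Every finite covering of a centrally symmetric convex body in Euclidean 3-space by cylinders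
(arbitrary axis directions, arbitrary bases) has directionwise relative area at least `5/12`, and
hence total base area at least `5/12` of the smallest shadow area. -/
theorem result (hE : finrank ℝ E = 3)
    (K : Set E) (hK : Convex ℝ K) (hc : IsCompact K) (hint : (interior K).Nonempty)
    (c : E) (hsym : ∀ x ∈ K, c + c - x ∈ K)
    {ι : Type} [Fintype ι] (u : ι → E) (hu : ∀ i, ‖u i‖ = 1)
    (B : (i : ι) → Set (plane (u i)))
    (hcov : K ⊆ ⋃ i, cylinder (u i) (B i)) :
    5 / 12 ≤ ∑ i, area (plane (u i)) (B i) / shadowArea K (u i) ∧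
    5 / 12 * (⨅ v : {v : E // ‖v‖ = 1}, shadowArea K v.1) ≤ ∑ i, area (plane (u i)) (B i) := by
  have hcov' : ∀ x ∈ K, ∃ i, ∃ b ∈ B i, ∃ t : ℝ, x = (b : E) + t • u i := by
    intro x hx
    obtain ⟨i, hi⟩ := mem_iUnion.1 (hcov hx)
    exact ⟨i, hi⟩
  exact ⟨Vale.Agent.Lib.P243.sym_bound_center hE hK hc hint c hsym u hu B hcov',
    Vale.Agent.Lib.P243.sym_bang_center hE hK hc hint c hsym u hu B hcov'⟩

end Vale.Agent.Results.P243.SymmetricBodies
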