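import Mathlib
import Vale.Agent.Lib.P243.Family

open MeasureTheory Set Module

namespace Vale.Agent.Results.P243.TwoDirections

variable {E : Type} [NormedAddCommGroup E] [InnerProductSpace ℝ E] [FiniteDimensional ℝ E]
  [MeasurableSpace E] [BorelSpace E]

/-- The plane through the origin orthogonal to `u`. -/
noncomputable def plane (u : E) : Submodule ℝ E := (ℝ ∙ u)ᗮ

/-- Euclidean area (Lebesgue measure of the subspace `V`) of a subset of `V`. -/
noncomputable def area (V : Submodule ℝ E) (B : Set V) : ENNReal := volume B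

/-- The orthogonal projection of the set `K` onto the subspace `V`. -/
noncomputable def proj (V : Submodule ℝ E) (K : Set E) : Set V :=
  V.orthogonalProjectionOnto '' K

/-- The cylinder `B + ℝ u` with base `B` in the plane orthogonal to `u`. -/
def cylinder (u : E) (B : Set (plane u)) : Set E :=
  {x | ∃ b ∈ B, ∃ t : ℝ, x = (b : E) + t • u}

/-- Bang's half-area bound, in the strong (directionwise relative) form, for all finite cylinder
coverings of a convex body in Euclidean 3-space whose axes are parallel to at most two lines. -/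
theorem result (hE : finrank ℝ E = 3)
    (K : Set E) (hK : Convex ℝ K) (hc : IsCompact K) (hint : (interior K).Nonempty)
    {ι : Type} [Fintype ι] (u : ι → E) (hu : ∀ i, ‖u i‖ = 1)
    (B : (i : ι) → Set (plane (u i)))
    (hcov : K ⊆ ⋃ i, cylinder (u i) (B i))
    (v w : E) (hv : ‖v‖ = 1) (hw : ‖w‖ = 1)
    (hdir : ∀ i, ℝ ∙ u i = ℝ ∙ v ∨ ℝ ∙ u i = ℝ ∙ w) :
    (1 / 2 ≤ ∑ i, area (plane (u i)) (B i) / area (plane (u i)) (proj (plane (u i)) K)) ∧
    ((⨅ n : {n : E // ‖n‖ = 1}, area (plane n.1) (proj (plane n.1) K)) / 2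
      ≤ ∑ i, area (plane (u i)) (B i)) := by
  have hcov' : ∀ x ∈ K, ∃ i, ∃ b ∈ B i, ∃ t : ℝ, x = (b : E) + t • u i := by
    intro x hx
    obtain ⟨i, hi⟩ := mem_iUnion.1 (hcov hx)
    exact ⟨i, hi⟩
  exact ⟨Vale.Agent.Lib.P243.family_bound hE hK hc hint u B hcov' v w hv hw hdir,
    Vale.Agent.Lib.P243.family_bang hE hK hc hint u hu B hcov' v w hv hw hdir⟩

end Vale.Agent.Results.P243.TwoDirections
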